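import Mathlib

/-! A moment bound for the sum of `1 / height` over pairs of a finite set of integers.
Repeated Cauchy-Schwarz on the kernel `q n = r m`, then a count of solutions of
`n_1 ... n_T = m_1 ... m_T` through the matrix of common factors. -/

open Finset

namespace Vale.Agent.Lib.P028G

noncomputable section

/-- Tuples of length `t` with entries in `[1, H]`. -/
def Tup (H t : ℕ) : Finset (Fin t → ℕ) := Fintype.piFinset fun _ => Finset.Icc 1 H

lemma mem_Tup {H t : ℕ} {n : Fin t → ℕ} : n ∈ Tup H t ↔ ∀ i, 1 ≤ n i ∧ n i ≤ H := by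
  simp [Tup, Fintype.mem_piFinset]

/-- Product of a tuple. -/
def pr {t : ℕ} (n : Fin t → ℕ) : ℕ := ∏ i, n i

lemma pr_pos {H t : ℕ} {n : Fin t → ℕ} (h : n ∈ Tup H t) : 0 < pr n :=
  Finset.prod_pos fun i _ => (mem_Tup.1 h i).1

lemma pr_append {s t : ℕ} (a : Fin s → ℕ) (b : Fin t → ℕ) :
    pr (Fin.append a b) = pr a * pr b := by
  simp [pr, Fin.prod_univ_add]

/-- Reciprocal of the square root. -/
def om (x : ℕ) : ℝ := (Real.sqrt (x:ℝ))⁻¹

lemma om_nonneg (x : ℕ) : 0 ≤ om x := by unfold om; positivity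

lemma om_mul (x y : ℕ) : om (x * y) = om x * om y := by
  unfold om
  rw [Nat.cast_mul, Real.sqrt_mul (Nat.cast_nonneg x), mul_inv]

lemma om_self {x : ℕ} : om x * om x = 1 / x := by
  unfold om
  have : (0:ℝ) ≤ x := Nat.cast_nonneg x
  rw [← mul_inv, Real.mul_self_sqrt this, one_div]

/-- The kernel: weighted count of solutions of `q n_1 ... n_t = r m_1 ... m_t`. -/
def NN (H t q r : ℕ) : ℝ :=
  ∑ p ∈ Tup H t ×ˢ Tup H t, if q * pr p.1 = r * pr p.2 then om (pr p.1) * om (pr p.2) else 0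

lemma NN_nonneg (H t q r : ℕ) : 0 ≤ NN H t q r := by
  unfold NN
  refine Finset.sum_nonneg fun p _ => ?_
  split_ifs
  · exact mul_nonneg (om_nonneg _) (om_nonneg _)
  · exact le_rfl

lemma NN_symm (H t q r : ℕ) : NN H t q r = NN H t r q := by
  unfold NN
  refine Finset.sum_bij' (fun p _ => (p.2, p.1)) (fun p _ => (p.2, p.1)) ?_ ?_ ?_ ?_ ?_
  · intro p hp
    simp only [Finset.mem_product] at hp ⊢
    exact ⟨hp.2, hp.1⟩
  · intro p hp
    simp only [Finset.mem_product] at hp ⊢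
    exact ⟨hp.2, hp.1⟩
  · intro p _
    rfl
  · intro p _
    rfl
  · intro p _
    by_cases h : q * pr p.1 = r * pr p.2
    · rw [if_pos h, if_pos h.symm, mul_comm]
    · rw [if_neg h, if_neg (fun h' => h h'.symm)]

/-- At most one `q` contributes to the product of two kernels at fixed tuples. -/
private lemma inner_le {t : ℕ} (F : Finset ℕ) {r r' : ℕ} {a b a' b' : Fin t → ℕ} {w w' : ℝ}
    (hw : 0 ≤ w) (hw' : 0 ≤ w') (ha : 0 < pr a) :
    ∑ q ∈ F, (if q * pr a = r * pr b then w else 0) * (if q * pr a' = r' * pr b' then w' else 0)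
      ≤ if r * (pr b * pr a') = r' * (pr b' * pr a) then w * w' else 0 := by
  classical
  have hrhs : 0 ≤ (if r * (pr b * pr a') = r' * (pr b' * pr a) then w * w' else 0) := by
    split_ifs
    · exact mul_nonneg hw hw'
    · exact le_rfl
  have hterm : ∀ q ∈ F, (if q * pr a = r * pr b then w else 0) *
      (if q * pr a' = r' * pr b' then w' else 0) =
      if q * pr a = r * pr b ∧ q * pr a' = r' * pr b' then w * w' else 0 := by
    intro q _
    by_cases h1 : q * pr a = r * pr b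
    · by_cases h2 : q * pr a' = r' * pr b'
      · simp [h1, h2]
      · simp [h1, h2]
    · simp [h1]
  rw [Finset.sum_congr rfl hterm, ← Finset.sum_filter]
  rw [Finset.sum_const, nsmul_eq_mul]
  by_cases hne : (F.filter fun q => q * pr a = r * pr b ∧ q * pr a' = r' * pr b').Nonempty
  · obtain ⟨q0, hq0⟩ := hne
    obtain ⟨-, h1, h2⟩ := Finset.mem_filter.1 hq0
    have hcard : (F.filter fun q => q * pr a = r * pr b ∧ q * pr a' = r' * pr b').card ≤ 1 := by
      apply Finset.card_le_one.2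
      intro x hx y hy
      obtain ⟨-, hx1, -⟩ := Finset.mem_filter.1 hx
      obtain ⟨-, hy1, -⟩ := Finset.mem_filter.1 hy
      exact Nat.eq_of_mul_eq_mul_right ha (hx1.trans hy1.symm)
    have heq : r * (pr b * pr a') = r' * (pr b' * pr a) := by
      calc r * (pr b * pr a') = (r * pr b) * pr a' := by ring
        _ = (q0 * pr a) * pr a' := by rw [h1]
        _ = (q0 * pr a') * pr a := by ring
        _ = (r' * pr b') * pr a := by rw [h2]
        _ = r' * (pr b' * pr a) := by ring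
    rw [if_pos heq]
    have hc : (((F.filter fun q => q * pr a = r * pr b ∧ q * pr a' = r' * pr b').card : ℕ) : ℝ) ≤ 1 := by
      exact_mod_cast hcard
    have hww : 0 ≤ w * w' := mul_nonneg hw hw'
    nlinarith
  · rw [Finset.not_nonempty_iff_eq_empty.1 hne]
    simpa using hrhs

private lemma append_inj {t : ℕ} {a b c d : Fin t → ℕ} (h : Fin.append a b = Fin.append c d) :
    a = c ∧ b = d := by
  have := (Fin.appendEquiv (α := ℕ) t t).injective (a₁ := (a, b)) (a₂ := (c, d)) h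
  exact ⟨congrArg Prod.fst this, congrArg Prod.snd this⟩

/-- Doubling the length of the tuples. -/
lemma NN_double (H t : ℕ) (F : Finset ℕ) (r r' : ℕ) :
    ∑ q ∈ F, NN H t q r * NN H t q r' ≤ NN H (t + t) r r' := by
  classical
  -- expand
  have hexp : ∑ q ∈ F, NN H t q r * NN H t q r'
      = ∑ p ∈ Tup H t ×ˢ Tup H t, ∑ p' ∈ Tup H t ×ˢ Tup H t, ∑ q ∈ F,
          (if q * pr p.1 = r * pr p.2 then om (pr p.1) * om (pr p.2) else 0) *
          (if q * pr p'.1 = r' * pr p'.2 then om (pr p'.1) * om (pr p'.2) else 0) := by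
    unfold NN
    simp_rw [Finset.sum_mul_sum]
    rw [Finset.sum_comm]
    refine Finset.sum_congr rfl fun p _ => ?_
    rw [Finset.sum_comm]
  rw [hexp]
  -- one term of `q`
  have hle : ∑ p ∈ Tup H t ×ˢ Tup H t, ∑ p' ∈ Tup H t ×ˢ Tup H t, ∑ q ∈ F,
          (if q * pr p.1 = r * pr p.2 then om (pr p.1) * om (pr p.2) else 0) *
          (if q * pr p'.1 = r' * pr p'.2 then om (pr p'.1) * om (pr p'.2) else 0)
      ≤ ∑ x ∈ (Tup H t ×ˢ Tup H t) ×ˢ (Tup H t ×ˢ Tup H t),
          if r * (pr x.1.2 * pr x.2.1) = r' * (pr x.2.2 * pr x.1.1) then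
            (om (pr x.1.1) * om (pr x.1.2)) * (om (pr x.2.1) * om (pr x.2.2)) else 0 := by
    rw [Finset.sum_product (Tup H t ×ˢ Tup H t) (Tup H t ×ˢ Tup H t)]
    apply Finset.sum_le_sum
    intro p hp
    apply Finset.sum_le_sum
    intro p' _
    have hp1 : p.1 ∈ Tup H t := (Finset.mem_product.1 hp).1
    exact inner_le F (mul_nonneg (om_nonneg _) (om_nonneg _))
      (mul_nonneg (om_nonneg _) (om_nonneg _)) (pr_pos hp1)
  refine hle.trans ?_
  -- the map into longer tuples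
  let f : ((Fin t → ℕ) × (Fin t → ℕ)) × ((Fin t → ℕ) × (Fin t → ℕ)) →
      (Fin (t + t) → ℕ) × (Fin (t + t) → ℕ) :=
    fun x => (Fin.append x.1.2 x.2.1, Fin.append x.2.2 x.1.1)
  have hinj : Set.InjOn f (↑((Tup H t ×ˢ Tup H t) ×ˢ (Tup H t ×ˢ Tup H t)) :
      Set (((Fin t → ℕ) × (Fin t → ℕ)) × ((Fin t → ℕ) × (Fin t → ℕ)))) := by
    intro x _ y _ hxy
    have h1 := congrArg Prod.fst hxy
    have h2 := congrArg Prod.snd hxy
    simp only [f] at h1 h2
    have h1' := append_inj h1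
    have h2' := append_inj h2
    ext1
    · ext1
      · exact h2'.2
      · exact h1'.1
    · ext1
      · exact h1'.2
      · exact h2'.1
  have hsub : ((Tup H t ×ˢ Tup H t) ×ˢ (Tup H t ×ˢ Tup H t)).image f ⊆
      Tup H (t + t) ×ˢ Tup H (t + t) := by
    intro y hy
    obtain ⟨x, hx, rfl⟩ := Finset.mem_image.1 hy
    simp only [Finset.mem_product] at hx
    obtain ⟨⟨h1, h2⟩, h3, h4⟩ := hx
    have happ : ∀ {a b : Fin t → ℕ}, a ∈ Tup H t → b ∈ Tup H t → Fin.append a b ∈ Tup H (t + t) := by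
      intro a b ha hb
      refine mem_Tup.2 fun i => ?_
      refine Fin.addCases (fun i => ?_) (fun i => ?_) i
      · rw [Fin.append_left]
        exact mem_Tup.1 ha i
      · rw [Fin.append_right]
        exact mem_Tup.1 hb i
    exact Finset.mem_product.2 ⟨happ h2 h3, happ h4 h1⟩
  unfold NN
  calc _ = ∑ y ∈ ((Tup H t ×ˢ Tup H t) ×ˢ (Tup H t ×ˢ Tup H t)).image f,
          if r * pr y.1 = r' * pr y.2 then om (pr y.1) * om (pr y.2) else 0 := by
        rw [Finset.sum_image hinj]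
        refine Finset.sum_congr rfl fun x _ => ?_
        simp only [f, pr_append, om_mul]
        by_cases h : r * (pr x.1.2 * pr x.2.1) = r' * (pr x.2.2 * pr x.1.1)
        · rw [if_pos h, if_pos h]
          ring
        · rw [if_neg h, if_neg h]
    _ ≤ _ := by
        apply Finset.sum_le_sum_of_subset_of_nonneg hsub
        intro y _ _
        split_ifs
        · exact mul_nonneg (om_nonneg _) (om_nonneg _)
        · exact le_rfl

/-- The double sum of the kernel over a finite set. -/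
def WW (H t : ℕ) (F : Finset ℕ) : ℝ := ∑ q ∈ F, ∑ r ∈ F, NN H t q r

lemma WW_nonneg (H t : ℕ) (F : Finset ℕ) : 0 ≤ WW H t F :=
  Finset.sum_nonneg fun _ _ => Finset.sum_nonneg fun _ _ => NN_nonneg _ _ _ _

/-- One Cauchy-Schwarz step. -/
lemma WW_sq (H t : ℕ) (F : Finset ℕ) : (WW H t F) ^ 2 ≤ F.card * WW H (t + t) F := by
  unfold WW
  have h1 := sq_sum_le_card_mul_sum_sq (s := F) (f := fun q => ∑ r ∈ F, NN H t q r)
  refine h1.trans (mul_le_mul_of_nonneg_left ?_ (Nat.cast_nonneg _))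
  have h2 : ∑ q ∈ F, (∑ r ∈ F, NN H t q r) ^ 2
      = ∑ r ∈ F, ∑ r' ∈ F, ∑ q ∈ F, NN H t q r * NN H t q r' := by
    simp_rw [sq, Finset.sum_mul_sum]
    rw [Finset.sum_comm]
    refine Finset.sum_congr rfl fun r _ => ?_
    rw [Finset.sum_comm]
  rw [h2]
  exact Finset.sum_le_sum fun r _ => Finset.sum_le_sum fun r' _ => NN_double H t F r r'

/-- The final Cauchy-Schwarz step: in terms of the diagonal kernel. -/
lemma WW_term (H t : ℕ) (F : Finset ℕ) {B : ℝ} (hB : ∀ q ∈ F, NN H (t + t) q q ≤ B) :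
    (WW H t F) ^ 2 ≤ (F.card : ℝ) ^ 3 * B := by
  unfold WW
  have h1 := sq_sum_le_card_mul_sum_sq (s := F) (f := fun q => ∑ r ∈ F, NN H t q r)
  have h2 : ∀ q ∈ F, (∑ r ∈ F, NN H t q r) ^ 2 ≤ F.card * B := by
    intro q hq
    have h3 := sq_sum_le_card_mul_sum_sq (s := F) (f := fun r => NN H t q r)
    refine h3.trans (mul_le_mul_of_nonneg_left ?_ (Nat.cast_nonneg _))
    have h4 : ∑ r ∈ F, (NN H t q r) ^ 2 = ∑ r ∈ F, NN H t r q * NN H t r q := by
      refine Finset.sum_congr rfl fun r _ => ?_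
      rw [sq, NN_symm H t q r]
    rw [h4]
    exact (NN_double H t F q q).trans (hB q hq)
  calc _ ≤ (F.card : ℝ) * ∑ q ∈ F, (∑ r ∈ F, NN H t q r) ^ 2 := h1
    _ ≤ (F.card : ℝ) * ∑ _q ∈ F, ((F.card : ℝ) * B) :=
        mul_le_mul_of_nonneg_left (Finset.sum_le_sum h2) (Nat.cast_nonneg _)
    _ = (F.card : ℝ) ^ 3 * B := by
        rw [Finset.sum_const, nsmul_eq_mul]
        ring

/-! ### The matrix of common factors -/

/-- One row of the matrix. -/
private lemma exists_row {b : ℕ} (x : ℕ) (m : Fin b → ℕ) (hx : x ∣ ∏ j, m j) :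
    ∃ e : Fin b → ℕ, (∏ j, e j = x) ∧ ∀ j, e j ∣ m j := by
  induction b generalizing x with
  | zero =>
    simp only [Finset.univ_eq_empty, Finset.prod_empty, Nat.dvd_one] at hx
    exact ⟨fun j => j.elim0, by simp [hx], fun j => j.elim0⟩
  | succ b ih =>
    rw [Fin.prod_univ_succ] at hx
    obtain ⟨x1, x2, h1, h2, rfl⟩ := exists_dvd_and_dvd_of_dvd_mul hx
    obtain ⟨e, he, hd⟩ := ih x2 (fun j => m j.succ) h2
    refine ⟨Fin.cons x1 e, ?_, ?_⟩
    · rw [Fin.prod_univ_succ]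
      simp [he]
    · intro j
      refine Fin.cases ?_ (fun j => ?_) j
      · simpa using h1
      · simpa using hd j

/-- The matrix of common factors of two equal products. -/
lemma exists_matrix (a : ℕ) {b : ℕ} (n : Fin a → ℕ) (m : Fin b → ℕ) (hm : ∀ j, 0 < m j)
    (h : ∏ i, n i = ∏ j, m j) :
    ∃ d : Fin a → Fin b → ℕ, (∀ i, ∏ j, d i j = n i) ∧ ∀ j, ∏ i, d i j = m j := by
  induction a generalizing m with
  | zero =>
    simp only [Finset.univ_eq_empty, Finset.prod_empty] at h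
    refine ⟨fun i => i.elim0, fun i => i.elim0, fun j => ?_⟩
    simp only [Finset.univ_eq_empty, Finset.prod_empty]
    exact (Nat.eq_one_of_dvd_one (h ▸ Finset.dvd_prod_of_mem m (Finset.mem_univ j))).symm
  | succ a ih =>
    rw [Fin.prod_univ_succ] at h
    obtain ⟨e, he, hd⟩ := exists_row (n 0) m (by rw [← h]; exact Dvd.intro _ rfl)
    have hm' : ∀ j, e j * (m j / e j) = m j := fun j => Nat.mul_div_cancel' (hd j)
    have hepos : ∀ j, 0 < e j := fun j => Nat.pos_of_dvd_of_pos (hd j) (hm j)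
    have hm'pos : ∀ j, 0 < m j / e j := fun j => Nat.div_pos (Nat.le_of_dvd (hm j) (hd j)) (hepos j)
    have hprod : ∏ j, m j = (∏ j, e j) * ∏ j, (m j / e j) := by
      rw [← Finset.prod_mul_distrib]
      exact Finset.prod_congr rfl fun j _ => (hm' j).symm
    have hn0pos : 0 < n 0 := by
      rw [← he]
      exact Finset.prod_pos fun j _ => hepos j
    have hrest : ∏ i : Fin a, n i.succ = ∏ j, (m j / e j) := by
      have : n 0 * ∏ i : Fin a, n i.succ = n 0 * ∏ j, (m j / e j) := by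
        rw [h, hprod, he]
      exact Nat.eq_of_mul_eq_mul_left hn0pos this
    obtain ⟨d, hd1, hd2⟩ := ih (fun i => n i.succ) (fun j => m j / e j) hm'pos hrest
    refine ⟨Fin.cons e d, ?_, ?_⟩
    · intro i
      refine Fin.cases ?_ (fun i => ?_) i
      · simpa using he
      · simpa using hd1 i
    · intro j
      rw [Fin.prod_univ_succ]
      simp only [Fin.cons_zero, Fin.cons_succ]
      rw [hd2 j, hm' j]

/-- The harmonic sum up to `H`. -/
def LL (H : ℕ) : ℝ := ∑ d ∈ Finset.Icc 1 H, (1:ℝ) / d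

lemma LL_nonneg (H : ℕ) : 0 ≤ LL H := Finset.sum_nonneg fun _ _ => by positivity

/-- The sum over tuples of reciprocal products. -/
lemma sum_Tup_inv (H t : ℕ) : ∑ e ∈ Tup H t, ∏ j, (1:ℝ) / e j = LL H ^ t := by
  unfold Tup LL
  have := Finset.prod_univ_sum (fun _ : Fin t => Finset.Icc 1 H) (fun _ (d : ℕ) => (1:ℝ) / d)
  rw [← this]
  simp

/-- The diagonal kernel is bounded by a power of the harmonic sum. -/
lemma NN_diag_le (H T q : ℕ) (hq : 1 ≤ q) : NN H T q q ≤ LL H ^ (T * T) := by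
  classical
  let Mat : Finset (Fin T → Fin T → ℕ) := Fintype.piFinset fun _ => Tup H T
  set S := (Tup H T ×ˢ Tup H T).filter (fun p => pr p.1 = pr p.2) with hS
  have hex : ∀ p ∈ S, ∃ d ∈ Mat, (∀ i, ∏ j, d i j = p.1 i) ∧ ∀ j, ∏ i, d i j = p.2 j := by
    intro p hp
    obtain ⟨hp1, hp2⟩ := Finset.mem_filter.1 hp
    obtain ⟨h1, h2⟩ := Finset.mem_product.1 hp1
    obtain ⟨d, hd1, hd2⟩ := exists_matrix T p.1 p.2 (fun j => (mem_Tup.1 h2 j).1) hp2
    refine ⟨d, ?_, hd1, hd2⟩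
    refine Fintype.mem_piFinset.2 fun i => mem_Tup.2 fun j => ?_
    have hdvd : d i j ∣ p.1 i := by
      rw [← hd1 i]
      exact Finset.dvd_prod_of_mem _ (Finset.mem_univ j)
    have hpos : 0 < p.1 i := (mem_Tup.1 h1 i).1
    exact ⟨Nat.pos_of_dvd_of_pos hdvd hpos, (Nat.le_of_dvd hpos hdvd).trans (mem_Tup.1 h1 i).2⟩
  choose! D hDm hD1 hD2 using hex
  have hval : NN H T q q = ∑ p ∈ S, ∏ i, ∏ j, (1:ℝ) / D p i j := by
    unfold NN
    rw [hS, Finset.sum_filter]
    refine Finset.sum_congr rfl fun p hp => ?_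
    by_cases h : pr p.1 = pr p.2
    · have hqq : q * pr p.1 = q * pr p.2 := by rw [h]
      rw [if_pos hqq, if_pos h, ← h, om_self]
      have hpS : p ∈ S := Finset.mem_filter.2 ⟨hp, h⟩
      have : ∏ i, ∏ j, (1:ℝ) / D p i j = (1:ℝ) / ∏ i, ∏ j, (D p i j : ℝ) := by
        simp only [one_div, Finset.prod_inv_distrib]
      rw [this]
      congr 1
      unfold pr
      push_cast
      refine Finset.prod_congr rfl fun i _ => ?_
      rw [← hD1 p hpS i]
      push_cast
      rfl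
    · have hqq : ¬ q * pr p.1 = q * pr p.2 := fun h' => h (Nat.eq_of_mul_eq_mul_left hq h')
      rw [if_neg hqq, if_neg h]
  rw [hval]
  have hinj : Set.InjOn D (↑S : Set ((Fin T → ℕ) × (Fin T → ℕ))) := by
    intro p hp p' hp' heq
    ext1
    · ext i
      rw [← hD1 p hp i, ← hD1 p' hp' i, heq]
    · ext j
      rw [← hD2 p hp j, ← hD2 p' hp' j, heq]
  have hsub : S.image D ⊆ Mat := by
    intro d hd
    obtain ⟨p, hp, rfl⟩ := Finset.mem_image.1 hd
    exact hDm p hp
  calc ∑ p ∈ S, ∏ i, ∏ j, (1:ℝ) / D p i j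
      = ∑ d ∈ S.image D, ∏ i, ∏ j, (1:ℝ) / d i j :=
        (Finset.sum_image (f := fun d : Fin T → Fin T → ℕ => ∏ i, ∏ j, (1:ℝ) / d i j) hinj).symm
    _ ≤ ∑ d ∈ Mat, ∏ i, ∏ j, (1:ℝ) / d i j :=
        Finset.sum_le_sum_of_subset_of_nonneg hsub fun d _ _ =>
          Finset.prod_nonneg fun i _ => Finset.prod_nonneg fun j _ => by positivity
    _ = LL H ^ (T * T) := by
        have h1 := Finset.prod_univ_sum (fun _ : Fin T => Tup H T)
          (fun _ (e : Fin T → ℕ) => ∏ j, (1:ℝ) / e j)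
        have h2 : ∑ d ∈ Mat, ∏ i, ∏ j, (1:ℝ) / d i j = ∏ _i : Fin T, (LL H ^ T) := by
          rw [← Finset.prod_congr rfl fun i _ => sum_Tup_inv H T]
          rw [h1]
        rw [h2, Finset.prod_const, Finset.card_univ, Fintype.card_fin, ← pow_mul]

/-- The lengths of the tuples. -/
def tw : ℕ → ℕ
  | 0 => 1
  | s + 1 => tw s + tw s

lemma tw_eq (s : ℕ) : tw s = 2 ^ s := by
  induction s with
  | zero => rfl
  | succ s ih => rw [tw, ih, pow_succ]; ring

/-- Iteration of the Cauchy-Schwarz step. -/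
lemma WW_iter (H : ℕ) (F : Finset ℕ) (s : ℕ) :
    (WW H 1 F) ^ (2 ^ s) * F.card ≤ (F.card : ℝ) ^ (2 ^ s) * WW H (tw s) F := by
  induction s with
  | zero =>
    simp only [pow_zero, pow_one, tw]
    exact le_of_eq (mul_comm _ _)
  | succ s ih =>
    by_cases hF : F.card = 0
    · simp only [hF, Nat.cast_zero, mul_zero]
      have : 0 < 2 ^ (s + 1) := by positivity
      rw [zero_pow this.ne']
      simp
    have hK : (0:ℝ) < F.card := by exact_mod_cast Nat.pos_of_ne_zero hF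
    have hW := WW_nonneg H 1 F
    have hW' := WW_nonneg H (tw s) F
    have h1 : ((WW H 1 F) ^ (2 ^ s) * F.card) ^ 2 ≤ ((F.card : ℝ) ^ (2 ^ s) * WW H (tw s) F) ^ 2 :=
      pow_le_pow_left₀ (by positivity) ih 2
    have h2 := WW_sq H (tw s) F
    have h3 : ((WW H 1 F) ^ (2 ^ (s + 1)) * F.card) * F.card
        ≤ ((F.card : ℝ) ^ (2 ^ (s + 1)) * WW H (tw (s + 1)) F) * F.card := by
      calc ((WW H 1 F) ^ (2 ^ (s + 1)) * F.card) * F.card
          = ((WW H 1 F) ^ (2 ^ s) * F.card) ^ 2 := by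
            rw [pow_succ 2 s, pow_mul]
            ring
        _ ≤ ((F.card : ℝ) ^ (2 ^ s) * WW H (tw s) F) ^ 2 := h1
        _ = (F.card : ℝ) ^ (2 ^ (s + 1)) * (WW H (tw s) F) ^ 2 := by
            rw [pow_succ 2 s, pow_mul]
            ring
        _ ≤ (F.card : ℝ) ^ (2 ^ (s + 1)) * (F.card * WW H (tw s + tw s) F) :=
            mul_le_mul_of_nonneg_left h2 (by positivity)
        _ = _ := by
            rw [tw]
            ring
    exact le_of_mul_le_mul_right h3 hK

/-- The moment bound. -/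
theorem WW_one_pow (H : ℕ) (F : Finset ℕ) (hF : ∀ q ∈ F, 1 ≤ q) (hcard : 1 ≤ F.card) (s : ℕ) :
    (WW H 1 F) ^ (2 ^ (s + 1)) ≤
      (F.card : ℝ) ^ (2 ^ (s + 1) + 1) * LL H ^ (2 ^ (s + 1) * 2 ^ (s + 1)) := by
  have hK : (0:ℝ) < F.card := by exact_mod_cast hcard
  have hW := WW_nonneg H 1 F
  have hiter := WW_iter H F s
  have hT : tw s + tw s = 2 ^ (s + 1) := by rw [tw_eq, pow_succ]; ring
  have hterm := WW_term H (tw s) F (B := LL H ^ (2 ^ (s + 1) * 2 ^ (s + 1)))
    (fun q hq => by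
      rw [hT]
      exact NN_diag_le H _ q (hF q hq))
  have h1 : ((WW H 1 F) ^ (2 ^ s) * F.card) ^ 2 ≤ ((F.card : ℝ) ^ (2 ^ s) * WW H (tw s) F) ^ 2 :=
    pow_le_pow_left₀ (by positivity) hiter 2
  have h3 : (WW H 1 F) ^ (2 ^ (s + 1)) * ((F.card : ℝ) ^ 2)
      ≤ ((F.card : ℝ) ^ (2 ^ (s + 1) + 1) * LL H ^ (2 ^ (s + 1) * 2 ^ (s + 1))) * ((F.card : ℝ) ^ 2) := by
    calc (WW H 1 F) ^ (2 ^ (s + 1)) * ((F.card : ℝ) ^ 2)
        = ((WW H 1 F) ^ (2 ^ s) * F.card) ^ 2 := by
          rw [pow_succ 2 s, pow_mul]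
          ring
      _ ≤ ((F.card : ℝ) ^ (2 ^ s) * WW H (tw s) F) ^ 2 := h1
      _ = (F.card : ℝ) ^ (2 ^ (s + 1)) * (WW H (tw s) F) ^ 2 := by
          rw [pow_succ 2 s, pow_mul]
          ring
      _ ≤ (F.card : ℝ) ^ (2 ^ (s + 1)) * ((F.card : ℝ) ^ 3 * LL H ^ (2 ^ (s + 1) * 2 ^ (s + 1))) :=
          mul_le_mul_of_nonneg_left hterm (by positivity)
      _ = _ := by ring
  exact le_of_mul_le_mul_right h3 (by positivity)

end

end Vale.Agent.Lib.P028G
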