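import Vale.Agent.Lib.P028G.Num
import Vale.Agent.Lib.P028T.PhiOver
import Vale.Agent.Lib.P028V.Abstract

/-! Theorem: every shift, no totient weight, divergence with the weight
`exp (-400 sqrt (log (1/m) loglog (1/m)))`. A single dyadic level of `ψ` with `N exp (100 AA)` elements
is a good block. -/

open MeasureTheory Filter Finset

namespace Vale.Agent.Lib.P028G

open Vale.Agent.Lib.P028
open Vale.Agent.Lib.P028T
open Vale.Agent.Lib.P028T.GcdAux
open Vale.Agent.Lib.P028V (abstract_main)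

/-- The overlap term of two equal values of `φ` is at most `v / height`. -/
lemma pairTerm_le' {γ : ℝ} {φ : ℕ → ℝ} {v : ℝ} (hv : 0 ≤ v) {q r : ℕ} (hr : 1 ≤ r)
    (hφq : φ q = v) (hφr : φ r = v) : pairTerm γ φ q r ≤ v * (1 / (ht q r : ℝ)) := by
  have hw : 0 ≤ v * (1 / (ht q r : ℝ)) := mul_nonneg hv (by positivity)
  unfold pairTerm
  simp only
  split_ifs with h
  swap
  · exact hw
  rw [hφq, hφr]
  have hhtR : (0:ℝ) < ht q r := by
    have : 1 ≤ ht q r := ht_pos hr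
    exact_mod_cast this
  change min (v / (lowB q r : ℝ)) (v / (lowA q r : ℝ)) ≤ _
  rcases le_total (lowA q r) (lowB q r) with hab | hab
  · have hm : ht q r = lowB q r := max_eq_right hab
    rw [hm, mul_one_div]
    exact min_le_left _ _
  · have hm : ht q r = lowA q r := max_eq_left hab
    rw [hm, mul_one_div]
    exact min_le_right _ _

lemma one_le_GG (n : ℕ) : 1 ≤ GG n := by
  have := AA_pos n
  exact Real.one_le_exp (by positivity)

/-- The choice of a dyadic level with many elements. -/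
lemma level_select' {φ : ℕ → ℝ} (lev : ℕ → ℕ) (hlev : ∀ q, φ q ≠ 0 → φ q = ((1:ℝ) / 2) ^ lev q)
    (hdiv : ¬ Summable fun q => if φ q = 0 then (0:ℝ) else
      ((1:ℝ) / 2) ^ lev q * ((GG (lev q))⁻¹ * (((lev q : ℝ) + 1) ^ 2)⁻¹)) (Y : ℕ) :
    ∃ (n : ℕ) (F : Finset ℕ), (∀ q ∈ F, Y ≤ q ∧ φ q = ((1:ℝ) / 2) ^ n) ∧
      (2:ℝ) ^ n * GG n ≤ (F.card : ℝ) := by
  classical
  by_contra hcon
  push Not at hcon
  apply hdiv
  obtain ⟨term, hterm⟩ : ∃ term : ℕ → ℝ, term = fun q => if φ q = 0 then (0:ℝ) else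
      ((1:ℝ) / 2) ^ lev q * ((GG (lev q))⁻¹ * (((lev q : ℝ) + 1) ^ 2)⁻¹) := ⟨_, rfl⟩
  rw [← hterm]
  have hgeo : Summable fun n : ℕ => (((n:ℝ) + 1) ^ 2)⁻¹ := by
    have h := (summable_nat_add_iff 1).2 (Real.summable_one_div_nat_pow.2 (by norm_num : 1 < 2))
    refine h.congr fun n => ?_
    push_cast
    simp [one_div]
  have hpow0 : ∀ q, 0 ≤ term q := by
    intro q
    rw [hterm]
    simp only
    split_ifs
    · exact le_rfl
    · have := one_le_GG (lev q)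
      positivity
  have hpow1 : ∀ q, term q ≤ 1 := by
    intro q
    rw [hterm]
    simp only
    split_ifs
    · norm_num
    · have h1 := one_le_GG (lev q)
      have h2 : (GG (lev q))⁻¹ ≤ 1 := inv_le_one_of_one_le₀ h1
      have h3 : (((lev q : ℝ) + 1) ^ 2)⁻¹ ≤ 1 := by
        apply inv_le_one_of_one_le₀
        have : (0:ℝ) ≤ lev q := Nat.cast_nonneg _
        nlinarith
      have h4 : ((1:ℝ) / 2) ^ lev q ≤ 1 := pow_le_one₀ (by norm_num) (by norm_num)
      have h5 : (GG (lev q))⁻¹ * (((lev q : ℝ) + 1) ^ 2)⁻¹ ≤ 1 :=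
        mul_le_one₀ h2 (by positivity) h3
      exact mul_le_one₀ h4 (by have : 0 < GG (lev q) := by linarith
                               positivity) h5
  refine summable_of_sum_le (c := (Y:ℝ) + ∑' n : ℕ, (((n:ℝ) + 1) ^ 2)⁻¹) hpow0 fun T => ?_
  -- the low part
  have hlow : ∑ q ∈ T.filter (· < Y), term q ≤ Y := by
    calc ∑ q ∈ T.filter (· < Y), term q ≤ ∑ _q ∈ T.filter (· < Y), (1:ℝ) :=
          Finset.sum_le_sum fun q _ => hpow1 q
      _ = ((T.filter (· < Y)).card : ℝ) := by simp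
      _ ≤ Y := by
          have : (T.filter (· < Y)) ⊆ Finset.range Y := by
            intro q hq
            exact Finset.mem_range.2 (Finset.mem_filter.1 hq).2
          have h2 := Finset.card_le_card this
          rw [Finset.card_range] at h2
          exact_mod_cast h2
  -- the high part
  set T₂ := T.filter (fun q => ¬ q < Y ∧ φ q ≠ 0) with hT₂
  have hfib : ∀ n ∈ T₂.image lev, ∑ q ∈ T₂.filter (fun q => lev q = n), term q ≤ (((n:ℝ) + 1) ^ 2)⁻¹ := by
    intro n _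
    have hmem : ∀ q ∈ T₂.filter (fun q => lev q = n), Y ≤ q ∧ φ q = ((1:ℝ) / 2) ^ n := by
      intro q hq
      obtain ⟨hq1, hq2⟩ := Finset.mem_filter.1 hq
      obtain ⟨-, hq3, hq4⟩ := Finset.mem_filter.1 hq1
      refine ⟨not_lt.1 hq3, ?_⟩
      rw [hlev q hq4, hq2]
    have hcard := hcon n _ hmem
    have hval : ∀ q ∈ T₂.filter (fun q => lev q = n),
        term q = ((1:ℝ) / 2) ^ n * ((GG n)⁻¹ * (((n:ℝ) + 1) ^ 2)⁻¹) := by
      intro q hq
      obtain ⟨hq1, hq2⟩ := Finset.mem_filter.1 hq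
      obtain ⟨-, -, hq4⟩ := Finset.mem_filter.1 hq1
      rw [hterm]
      simp only [if_neg hq4, hq2]
    rw [Finset.sum_congr rfl hval, Finset.sum_const, nsmul_eq_mul]
    have hGpos : 0 < GG n := Real.exp_pos _
    have hnn : (0:ℝ) ≤ ((1:ℝ) / 2) ^ n * ((GG n)⁻¹ * (((n:ℝ) + 1) ^ 2)⁻¹) := by positivity
    calc ((T₂.filter (fun q => lev q = n)).card : ℝ) * (((1:ℝ) / 2) ^ n * ((GG n)⁻¹ * (((n:ℝ) + 1) ^ 2)⁻¹))
        ≤ ((2:ℝ) ^ n * GG n) * (((1:ℝ) / 2) ^ n * ((GG n)⁻¹ * (((n:ℝ) + 1) ^ 2)⁻¹)) :=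
          mul_le_mul_of_nonneg_right hcard.le hnn
      _ = (((n:ℝ) + 1) ^ 2)⁻¹ := by
          have h2 : (2:ℝ) ^ n * ((1:ℝ) / 2) ^ n = 1 := by
            rw [← mul_pow]
            norm_num
          have h3 : GG n * (GG n)⁻¹ = 1 := mul_inv_cancel₀ hGpos.ne'
          calc ((2:ℝ) ^ n * GG n) * (((1:ℝ) / 2) ^ n * ((GG n)⁻¹ * (((n:ℝ) + 1) ^ 2)⁻¹))
              = ((2:ℝ) ^ n * ((1:ℝ) / 2) ^ n) * (GG n * (GG n)⁻¹) * (((n:ℝ) + 1) ^ 2)⁻¹ := by ring
            _ = _ := by rw [h2, h3]; ring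
  have hhigh : ∑ q ∈ T₂, term q ≤ ∑' n : ℕ, (((n:ℝ) + 1) ^ 2)⁻¹ := by
    have hmaps : ∀ q ∈ T₂, lev q ∈ T₂.image lev := fun q hq => Finset.mem_image_of_mem _ hq
    rw [← Finset.sum_fiberwise_of_maps_to hmaps]
    refine (Finset.sum_le_sum hfib).trans ?_
    exact hgeo.sum_le_tsum _ (fun n _ => by positivity)
  -- assemble
  have hsplit : ∑ q ∈ T, term q ≤ ∑ q ∈ T.filter (· < Y), term q + ∑ q ∈ T₂, term q := by
    rw [← Finset.sum_filter_add_sum_filter_not T (· < Y)]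
    apply add_le_add le_rfl
    apply le_of_eq
    rw [hT₂, Finset.sum_filter, Finset.sum_filter]
    apply Finset.sum_congr rfl
    intro q _
    by_cases h2 : q < Y
    · simp [h2]
    · by_cases h3 : φ q = 0
      · have : term q = 0 := by
          rw [hterm]
          simp [h3]
        simp [h2, h3, this]
      · simp [h2, h3]
  linarith

/-- The theorem for a dyadic function. -/
theorem main_dyadic' (γ : ℝ) (φ : ℕ → ℝ) (h0 : ∀ q, 0 ≤ φ q) (h1 : ∀ q, φ q ≤ 1 / 2)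
    (lev : ℕ → ℕ) (hd : ∀ q, φ q ≠ 0 → φ q = ((1:ℝ) / 2) ^ lev q)
    (hdiv : ¬ Summable fun q => if φ q = 0 then (0:ℝ) else
      ((1:ℝ) / 2) ^ lev q * ((GG (lev q))⁻¹ * (((lev q : ℝ) + 1) ^ 2)⁻¹)) :
    ∀ᵐ x : ℝ, ∃ᶠ q : ℕ in atTop, dn ((q:ℝ) * x - γ) < φ q := by
  classical
  have hblocks : ∃ C₁ : ℝ, 0 < C₁ ∧ ∀ Y : ℕ, ∃ F : Finset ℕ, (∀ r ∈ F, Y ≤ r) ∧
      1 ≤ ∑ r ∈ F, ∫ x in (0:ℝ)..1, Phi γ φ r x ∧
      ∑ r ∈ F, ∑ q ∈ F.filter (· < r), ∫ x in (0:ℝ)..1, Phi γ φ q x * Phi γ φ r x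
        ≤ C₁ * (∑ r ∈ F, ∫ x in (0:ℝ)..1, Phi γ φ r x) ^ 2 := by
    refine ⟨774, by norm_num, fun Y => ?_⟩
    obtain ⟨n, F₀, hF₀, hcard₀⟩ := level_select' lev hd hdiv (max Y 2)
    have hG1 := one_le_GG n
    have hGpos : 0 < GG n := by linarith
    obtain ⟨N, hNd⟩ : ∃ N : ℝ, N = (2:ℝ) ^ n := ⟨_, rfl⟩
    have hN1 : 1 ≤ N := by rw [hNd]; exact one_le_pow₀ (by norm_num)
    have hN0 : 0 < N := by linarith
    have hceil : ⌈(2:ℝ) ^ n * GG n⌉₊ ≤ F₀.card := Nat.ceil_le.2 hcard₀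
    obtain ⟨F, hFsub, hFcard⟩ := Finset.exists_subset_card_eq hceil
    have hF : ∀ q ∈ F, max Y 2 ≤ q ∧ φ q = ((1:ℝ) / 2) ^ n := fun q hq => hF₀ q (hFsub hq)
    have hqY : ∀ q ∈ F, Y ≤ q := fun q hq => (le_max_left _ _).trans (hF q hq).1
    have hq2 : ∀ q ∈ F, 2 ≤ q := fun q hq => (le_max_right _ _).trans (hF q hq).1
    have hv : ((1:ℝ) / 2) ^ n = 1 / N := by
      rw [hNd]
      simp [one_div, inv_pow]
    have hφF : ∀ q ∈ F, φ q = 1 / N := fun q hq => by rw [(hF q hq).2, hv]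
    obtain ⟨K, hKd⟩ : ∃ K : ℝ, K = (F.card : ℝ) := ⟨_, rfl⟩
    have hKlow : N * GG n ≤ K := by
      rw [hKd, hFcard, hNd]
      exact Nat.le_ceil _
    have hKup : (F.card : ℝ) ≤ 2 * 2 ^ n * GG n := by
      rw [hFcard]
      have h3 : (⌈(2:ℝ) ^ n * GG n⌉₊ : ℝ) < (2:ℝ) ^ n * GG n + 1 :=
        Nat.ceil_lt_add_one (by positivity)
      have h4 : (1:ℝ) ≤ (2:ℝ) ^ n * GG n := by
        rw [← hNd]
        nlinarith
      linarith
    have hNK : N ≤ K := by nlinarith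
    have hK1 : 1 ≤ K := by linarith
    have hK0 : 0 < K := by linarith
    have hcard1 : 1 ≤ F.card := by
      have : (1:ℝ) ≤ F.card := by rw [← hKd]; exact hK1
      exact_mod_cast this
    have hint : ∑ r ∈ F, ∫ x in (0:ℝ)..1, Phi γ φ r x = K / N := by
      rw [Finset.sum_congr rfl fun r hr => integral_phi h0 h1 (hq2 r hr),
        Finset.sum_congr rfl hφF, Finset.sum_const, nsmul_eq_mul, hKd]
      ring
    have hM : 1 ≤ K / N := by
      rw [le_div_iff₀ hN0, one_mul]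
      exact hNK
    refine ⟨F, hqY, ?_, ?_⟩
    · rw [hint]
      exact hM
    · rw [hint]
      -- termwise
      have hterm : ∀ r ∈ F, ∀ q ∈ F.filter (· < r), ∫ x in (0:ℝ)..1, Phi γ φ q x * Phi γ φ r x
          ≤ 772 * ((1 / N) * (1 / N)) + (1 / N) * (1 / (ht q r : ℝ)) := by
        intro r hr q hq
        have hqF : q ∈ F := (Finset.mem_filter.1 hq).1
        have h2 := overlap_le (γ := γ) h0 h1 (hq2 q hqF) (hq2 r hr)
        rw [hφF q hqF, hφF r hr] at h2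
        have h3 := pairTerm_le' (γ := γ) (φ := φ) (v := 1 / N) (by positivity)
          (q := q) (r := r) (by have := hq2 r hr; omega) (hφF q hqF) (hφF r hr)
        linarith
      have hsum : ∑ r ∈ F, ∑ q ∈ F.filter (· < r), ∫ x in (0:ℝ)..1, Phi γ φ q x * Phi γ φ r x
          ≤ ∑ r ∈ F, ∑ q ∈ F, (772 * ((1 / N) * (1 / N)) + (1 / N) * (1 / (ht q r : ℝ))) := by
        refine Finset.sum_le_sum fun r hr => ?_
        refine (Finset.sum_le_sum (hterm r hr)).trans ?_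
        apply Finset.sum_le_sum_of_subset_of_nonneg (Finset.filter_subset _ _)
        intro q _ _
        positivity
      have hval : ∑ r ∈ F, ∑ q ∈ F, (772 * ((1 / N) * (1 / N)) + (1 / N) * (1 / (ht q r : ℝ)))
          = 772 * (K / N) ^ 2 + (1 / N) * ∑ q ∈ F, ∑ r ∈ F, (1:ℝ) / (ht q r : ℝ) := by
        simp only [Finset.sum_add_distrib, Finset.sum_const, nsmul_eq_mul, ← Finset.mul_sum]
        rw [Finset.sum_comm (f := fun r q => (1:ℝ) / (ht q r : ℝ)), ← hKd]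
        field_simp
      have hg := sum_inv_ht_le n F (fun q hq => by have := hq2 q hq; omega) hcard1 hKup
      rw [← hKd] at hg
      rw [hval] at hsum
      have hnum : (1 / N) * (1 + K * GG n) ≤ 2 * (K / N) ^ 2 := by
        have h5 : (1 / N) * (K * GG n) ≤ (K / N) ^ 2 := by
          have h6 : K * GG n * N ≤ K * K := by
            have : N * GG n * K ≤ K * K := mul_le_mul_of_nonneg_right hKlow hK0.le
            nlinarith
          rw [div_pow, div_mul_eq_mul_div, one_mul, div_le_div_iff₀ hN0 (by positivity)]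
          nlinarith
        have h7 : (1 / N) ≤ (K / N) ^ 2 := by
          have h8 : (1 / N) ≤ 1 := by
            rw [div_le_one hN0]
            exact hN1
          nlinarith
        have h9 : (1 / N) * (1 + K * GG n) = (1 / N) + (1 / N) * (K * GG n) := by ring
        rw [h9]
        linarith
      have hg2 : (1 / N) * ∑ q ∈ F, ∑ r ∈ F, (1:ℝ) / (ht q r : ℝ) ≤ (1 / N) * (1 + K * GG n) :=
        mul_le_mul_of_nonneg_left hg (by positivity)
      nlinarith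
  have h := abstract_main (Phi γ φ) phi_lip (fun r x => phi_nonneg r x)
    (fun r hr x => phi_le_one h1 hr x) (fun r x => phi_periodic r x)
    (fun L ε hL hε => phi_mix h0 h1 L ε hL hε) hblocks
  filter_upwards [h] with x hx
  apply (hx.and_eventually (eventually_ge_atTop 1)).mono
  intro q hq
  exact phi_pos_imp hq.2 hq.1

/-- Comparison of the weights. -/
lemma weight_compare {j : ℕ} (hj : 2 ≤ j) {ℓ : ℝ} (hℓ : ((j:ℝ) - 1) * Real.log 2 ≤ ℓ) :
    Real.exp (-(400 * Real.sqrt (ℓ * Real.log (ℓ + 3)))) ≤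
      (GG j)⁻¹ * (((j:ℝ) + 1) ^ 2)⁻¹ := by
  obtain ⟨h0, h1, h2, h3, h4⟩ := AA_facts j
  have hjR : (2:ℝ) ≤ j := by exact_mod_cast hj
  have hl2 : (0.69:ℝ) < Real.log 2 := by
    have := Real.log_two_gt_d9
    linarith
  have hℓ0 : (0:ℝ) ≤ ℓ := by
    have : 0 ≤ ((j:ℝ) - 1) * Real.log 2 := mul_nonneg (by linarith) (by linarith)
    linarith
  have hj1 : (j:ℝ) - 1 ≤ 1.5 * ℓ := by
    have : (0.69:ℝ) * ((j:ℝ) - 1) ≤ ((j:ℝ) - 1) * Real.log 2 := by nlinarith
    linarith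
  have hΛ : 0 < Real.log (ℓ + 3) := Real.log_pos (by linarith)
  have hlog : Real.log ((j:ℝ) + 2) ≤ 2 * Real.log (ℓ + 3) := by
    have h5 : (j:ℝ) + 2 ≤ (ℓ + 3) ^ 2 := by nlinarith
    have h6 := Real.log_le_log (by linarith) h5
    rwa [Real.log_pow, Nat.cast_ofNat] at h6
  have hA2 : AA j * AA j ≤ (3 * Real.sqrt (ℓ * Real.log (ℓ + 3))) ^ 2 := by
    rw [mul_pow, Real.sq_sqrt (mul_nonneg hℓ0 hΛ.le), h4]
    have h5 : (j:ℝ) + 1 ≤ 4.5 * ℓ := by
      -- uses `j ≥ 2`, so `j + 1 ≤ 3 (j - 1)`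
      linarith
    have h6 : ((j:ℝ) + 1) * Real.log ((j:ℝ) + 2) ≤ (4.5 * ℓ) * (2 * Real.log (ℓ + 3)) :=
      mul_le_mul h5 hlog h0.le (by positivity)
    nlinarith
  have hA3 : AA j ≤ 3 * Real.sqrt (ℓ * Real.log (ℓ + 3)) := by
    have := AA_pos j
    nlinarith [Real.sqrt_nonneg (ℓ * Real.log (ℓ + 3))]
  have hlogj : Real.log ((j:ℝ) + 1) ≤ AA j := by
    have h5 : Real.log ((j:ℝ) + 1) ≤ Real.log ((j:ℝ) + 2) :=
      Real.log_le_log (by linarith) (by linarith)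
    linarith
  have hrhs : (GG j)⁻¹ * (((j:ℝ) + 1) ^ 2)⁻¹ = Real.exp (-(100 * AA j + 2 * Real.log ((j:ℝ) + 1))) := by
    rw [Real.exp_neg, Real.exp_add, mul_inv, GG]
    congr 2
    rw [mul_comm, Real.exp_mul, Real.exp_log (by linarith)]
    norm_cast
  rw [hrhs]
  apply Real.exp_le_exp.2
  have := AA_pos j
  nlinarith [Real.sqrt_nonneg (ℓ * Real.log (ℓ + 3))]

/-- The theorem: every shift, weight `exp (-400 sqrt (log (1/m) log (3 + log (1/m))))`. -/
theorem main_G (γ : ℝ) (ψ : ℕ → ℝ) (hψ : ∀ q, 0 ≤ ψ q)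
    (hdiv : ¬ Summable fun q : ℕ => min (ψ q) (1 / 2) *
      Real.exp (-(400 * Real.sqrt (Real.log (1 / min (ψ q) (1 / 2)) *
        Real.log (Real.log (1 / min (ψ q) (1 / 2)) + 3))))) :
    ∀ᵐ x : ℝ, ∃ᶠ q : ℕ in atTop, dn ((q:ℝ) * x - γ) < ψ q := by
  classical
  set m : ℕ → ℝ := fun q => min (ψ q) (1 / 2) with hm
  have hm0 : ∀ q, 0 ≤ m q := fun q => le_min (hψ q) (by norm_num)
  have hm1 : ∀ q, m q ≤ 1 / 2 := fun q => min_le_right _ _
  have hex : ∀ q, ∃ j : ℕ, 0 < m q → ((1:ℝ) / 2) ^ j < m q ∧ m q ≤ 2 * ((1:ℝ) / 2) ^ j := by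
    intro q
    by_cases h : 0 < m q
    · obtain ⟨n, hn1, hn2⟩ := exists_nat_pow_near_of_lt_one h ((hm1 q).trans (by norm_num))
        (by norm_num : (0:ℝ) < 1 / 2) (by norm_num : (1:ℝ) / 2 < 1)
      refine ⟨n + 1, fun _ => ⟨hn1, ?_⟩⟩
      rw [pow_succ]
      linarith
    · exact ⟨0, fun h' => absurd h' h⟩
  choose lev hlev using hex
  obtain ⟨φ, hφ⟩ : ∃ φ : ℕ → ℝ, φ = fun q => if m q = 0 then 0 else ((1:ℝ) / 2) ^ lev q := ⟨_, rfl⟩
  have hφ0 : ∀ q, m q = 0 → φ q = 0 := fun q h => by rw [hφ]; simp [h]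
  have hφ1 : ∀ q, m q ≠ 0 → φ q = ((1:ℝ) / 2) ^ lev q := fun q h => by rw [hφ]; simp [h]
  have hφnn : ∀ q, 0 ≤ φ q := by
    intro q
    by_cases h : m q = 0
    · rw [hφ0 q h]
    · rw [hφ1 q h]
      positivity
  have hφle : ∀ q, φ q ≤ m q := by
    intro q
    by_cases h : m q = 0
    · rw [hφ0 q h, h]
    · rw [hφ1 q h]
      exact (hlev q (lt_of_le_of_ne (hm0 q) (Ne.symm h))).1.le
  have hφψ : ∀ q, φ q ≤ ψ q := fun q => (hφle q).trans (min_le_left _ _)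
  have hφne : ∀ q, φ q = 0 ↔ m q = 0 := by
    intro q
    constructor
    · intro h
      by_contra h2
      rw [hφ1 q h2] at h
      exact absurd h (by positivity)
    · exact hφ0 q
  have hφd : ∀ q, φ q ≠ 0 → φ q = ((1:ℝ) / 2) ^ lev q := by
    intro q hq
    exact hφ1 q (fun h => hq ((hφne q).2 h))
  have hφdiv : ¬ Summable fun q => if φ q = 0 then (0:ℝ) else
      ((1:ℝ) / 2) ^ lev q * ((GG (lev q))⁻¹ * (((lev q : ℝ) + 1) ^ 2)⁻¹) := by
    intro hs
    apply hdiv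
    refine Summable.of_nonneg_of_le (fun q => mul_nonneg (hm0 q) (Real.exp_pos _).le)
      (fun q => ?_) (hs.mul_left 2)
    by_cases h : m q = 0
    · change m q * _ ≤ _
      rw [h, if_pos ((hφne q).2 h)]
      simp
    · have hpos : 0 < m q := lt_of_le_of_ne (hm0 q) (Ne.symm h)
      rw [if_neg (fun h' => h ((hφne q).1 h'))]
      obtain ⟨h1, h2⟩ := hlev q hpos
      have hj : 2 ≤ lev q := by
        by_contra hcon
        push Not at hcon
        have hle : (1:ℝ) / 2 ≤ ((1:ℝ) / 2) ^ lev q := by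
          interval_cases (lev q)
          · norm_num
          · norm_num
        have := hm1 q
        linarith
      have hjR : (1:ℝ) ≤ (lev q : ℝ) - 1 := by
        have : (2:ℝ) ≤ lev q := by exact_mod_cast hj
        linarith
      have hℓ : ((lev q : ℝ) - 1) * Real.log 2 ≤ Real.log (1 / m q) := by
        have h3 : m q ≤ ((1:ℝ) / 2) ^ (lev q - 1) := by
          obtain ⟨i, hi⟩ : ∃ i, lev q = i + 1 := ⟨lev q - 1, by omega⟩
          rw [hi, Nat.add_sub_cancel]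
          rw [hi, pow_succ] at h2
          linarith
        have h4 : (2:ℝ) ^ (lev q - 1) ≤ 1 / m q := by
          rw [le_div_iff₀ hpos]
          have h5 : (2:ℝ) ^ (lev q - 1) * ((1:ℝ) / 2) ^ (lev q - 1) = 1 := by
            rw [← mul_pow]
            norm_num
          have h6 : (0:ℝ) < (2:ℝ) ^ (lev q - 1) := by positivity
          nlinarith
        have h7 := Real.log_le_log (by positivity) h4
        rw [Real.log_pow] at h7
        have h8 : ((lev q - 1 : ℕ) : ℝ) = (lev q : ℝ) - 1 := by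
          rw [Nat.cast_sub (by omega)]
          simp
        rwa [h8] at h7
      have hw := weight_compare hj hℓ
      have hexp0 := Real.exp_pos (-(400 * Real.sqrt (Real.log (1 / m q) *
        Real.log (Real.log (1 / m q) + 3))))
      calc m q * Real.exp (-(400 * Real.sqrt (Real.log (1 / m q) * Real.log (Real.log (1 / m q) + 3))))
          ≤ (2 * ((1:ℝ) / 2) ^ lev q) * ((GG (lev q))⁻¹ * (((lev q : ℝ) + 1) ^ 2)⁻¹) :=
            mul_le_mul h2 hw hexp0.le (by positivity)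
        _ = _ := by ring
  have h := main_dyadic' γ φ hφnn (fun q => (hφle q).trans (hm1 q)) lev hφd hφdiv
  filter_upwards [h] with x hx
  exact hx.mono fun q hq => lt_of_lt_of_le hq (hφψ q)

end Vale.Agent.Lib.P028G
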