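import Vale.Agent.Lib.P028G.Gal
import Vale.Agent.Lib.P028T.GcdSum

/-! The bound on the sum of `1 / height`, with the choice of the moment. -/

open Finset

namespace Vale.Agent.Lib.P028G

open Vale.Agent.Lib.P028T
open Vale.Agent.Lib.P028T.GcdAux

noncomputable section

/-- The scale `sqrt ((n + 1) log (n + 2))`. -/
def AA (n : ℕ) : ℝ := Real.sqrt (((n:ℝ) + 1) * Real.log ((n:ℝ) + 2))

/-- The excess at level `n`. -/
def GG (n : ℕ) : ℝ := Real.exp (100 * AA n)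

lemma LL_le {H : ℕ} : LL H ≤ 1 + Real.log H := by
  have h := harmonic_le_one_add_log H
  rw [harmonic_eq_sum_Icc] at h
  push_cast at h
  unfold LL
  simpa [one_div] using h

/-- Facts about the scale. -/
lemma AA_facts (n : ℕ) : 0 < Real.log ((n:ℝ) + 2) ∧ Real.log ((n:ℝ) + 2) ≤ (n:ℝ) + 1 ∧
    Real.log ((n:ℝ) + 2) ≤ AA n ∧ AA n ≤ (n:ℝ) + 1 ∧
    AA n * AA n = ((n:ℝ) + 1) * Real.log ((n:ℝ) + 2) := by
  have hn : (0:ℝ) ≤ n := Nat.cast_nonneg n
  have h0 : 0 < Real.log ((n:ℝ) + 2) := Real.log_pos (by linarith)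
  have h1 : Real.log ((n:ℝ) + 2) ≤ (n:ℝ) + 1 := by
    have := Real.log_le_sub_one_of_pos (show (0:ℝ) < (n:ℝ) + 2 by linarith)
    linarith
  have hprod : 0 ≤ ((n:ℝ) + 1) * Real.log ((n:ℝ) + 2) := by positivity
  refine ⟨h0, h1, ?_, ?_, Real.mul_self_sqrt hprod⟩
  · apply Real.le_sqrt_of_sq_le
    nlinarith
  · rw [AA, Real.sqrt_le_left (by positivity)]
    nlinarith

lemma AA_pos (n : ℕ) : 0 < AA n := by
  obtain ⟨h0, -, h1, -⟩ := AA_facts n
  linarith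

/-- The numerical core: the choice of the exponent `T`. -/
lemma num_core (n K : ℕ) (hK1 : 1 ≤ K) (hK : (K:ℝ) ≤ 2 * 2 ^ n * GG n) :
    ∃ s : ℕ, (K:ℝ) * LL (K ^ 2) ^ (2 ^ (s + 1) * 2 ^ (s + 1)) ≤ (GG n) ^ (2 ^ (s + 1)) := by
  obtain ⟨h0, h1, h2, h3, h4⟩ := AA_facts n
  set ℓ := Real.log ((n:ℝ) + 2) with hℓ
  set A := AA n with hA
  have hn : (0:ℝ) ≤ n := Nat.cast_nonneg n
  have hApos : 0 < A := AA_pos n
  -- the ideal exponent
  obtain ⟨t0, ht0⟩ : ∃ t0 : ℝ, t0 = 2 * A / ℓ := ⟨_, rfl⟩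
  have ht0ℓ : t0 * ℓ = 2 * A := by rw [ht0]; field_simp
  have ht0A : t0 * A = 2 * ((n:ℝ) + 1) := by
    have : t0 * A * ℓ = 2 * ((n:ℝ) + 1) * ℓ := by
      calc t0 * A * ℓ = (t0 * ℓ) * A := by ring
        _ = 2 * (A * A) := by rw [ht0ℓ]; ring
        _ = _ := by rw [h4]; ring
    exact mul_right_cancel₀ h0.ne' this
  have ht01 : 1 ≤ t0 := by
    have : 2 ≤ t0 := by
      rw [ht0, le_div_iff₀ h0]
      linarith
    linarith
  obtain ⟨s, hs1, hs2⟩ := exists_nat_pow_near ht01 (by norm_num : (1:ℝ) < 2)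
  refine ⟨s, ?_⟩
  obtain ⟨T, hT⟩ : ∃ T : ℝ, T = (2:ℝ) ^ (s + 1) := ⟨_, rfl⟩
  have hTt : t0 < T := by rw [hT]; exact hs2
  have hT2 : T ≤ 2 * t0 := by rw [hT, pow_succ]; linarith
  have hTpos : 0 < T := by linarith
  -- bound on `K`
  have hl2 : Real.log 2 ≤ 1 := by
    have := Real.log_two_lt_d9
    linarith
  obtain ⟨X, hX⟩ : ∃ X : ℝ, X = ((n:ℝ) + 1) * Real.log 2 + 100 * A := ⟨_, rfl⟩
  have hKR : (0:ℝ) < K := by exact_mod_cast hK1
  have hKX : Real.log K ≤ X := by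
    have h5 : Real.log K ≤ Real.log (2 * 2 ^ n * GG n) :=
      Real.log_le_log hKR hK
    have h6 : Real.log (2 * 2 ^ n * GG n) = X := by
      have : (2:ℝ) * 2 ^ n = 2 ^ (n + 1) := by rw [pow_succ]; ring
      have hGn : GG n = Real.exp (100 * A) := rfl
      rw [this, hGn, Real.log_mul (by positivity) (Real.exp_pos _).ne', Real.log_pow, Real.log_exp, hX]
      push_cast
      ring
    linarith
  have hlogK0 : 0 ≤ Real.log K := Real.log_natCast_nonneg K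
  have hX0 : 0 ≤ X := hlogK0.trans hKX
  -- bound on the harmonic sum
  have hL : LL (K ^ 2) ≤ ((n:ℝ) + 2) ^ 9 := by
    have h7 : LL (K ^ 2) ≤ 1 + Real.log ((K ^ 2 : ℕ) : ℝ) := LL_le
    have h8 : Real.log ((K ^ 2 : ℕ) : ℝ) = 2 * Real.log K := by
      push_cast
      rw [Real.log_pow]
      norm_num
    have h9 : LL (K ^ 2) ≤ 203 * ((n:ℝ) + 1) := by
      rw [h8] at h7
      have : ((n:ℝ) + 1) * Real.log 2 ≤ (n:ℝ) + 1 := by nlinarith
      nlinarith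
    have h10 : (203:ℝ) ≤ ((n:ℝ) + 2) ^ 8 := by
      have : (2:ℝ) ^ 8 ≤ ((n:ℝ) + 2) ^ 8 := pow_le_pow_left₀ (by norm_num) (by linarith) 8
      norm_num at this ⊢
      linarith
    calc LL (K ^ 2) ≤ 203 * ((n:ℝ) + 1) := h9
      _ ≤ ((n:ℝ) + 2) ^ 8 * ((n:ℝ) + 2) := by
          apply mul_le_mul h10 (by linarith) (by linarith) (by positivity)
      _ = ((n:ℝ) + 2) ^ 9 := by ring
  have hL2 : LL (K ^ 2) ≤ Real.exp (9 * ℓ) := by
    refine hL.trans (le_of_eq ?_)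
    rw [hℓ, mul_comm, Real.exp_mul, Real.exp_log (by linarith)]
    norm_cast
  have hLT : LL (K ^ 2) ^ (2 ^ (s + 1) * 2 ^ (s + 1)) ≤ Real.exp (9 * ℓ * (T * T)) := by
    refine (pow_le_pow_left₀ (LL_nonneg _) hL2 _).trans (le_of_eq ?_)
    rw [← Real.exp_nat_mul]
    congr 1
    rw [hT]
    push_cast
    ring
  have hKexp : (K:ℝ) ≤ Real.exp X := by
    calc (K:ℝ) = Real.exp (Real.log K) := (Real.exp_log hKR).symm
      _ ≤ Real.exp X := Real.exp_le_exp.2 hKX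
  -- the inequality of exponents
  have hfin : X + 9 * ℓ * (T * T) ≤ T * (100 * A) := by
    have ha : (n:ℝ) + 1 ≤ T * A / 2 := by
      have : t0 * A ≤ T * A := mul_le_mul_of_nonneg_right hTt.le hApos.le
      linarith
    have hb : 100 * A ≤ 50 * T * A := by
      have h5 : t0 * ℓ ≤ T * ℓ := mul_le_mul_of_nonneg_right hTt.le h0.le
      have h6 : T * ℓ ≤ T * A := mul_le_mul_of_nonneg_left h2 hTpos.le
      linarith
    have hc : 9 * ℓ * (T * T) ≤ 36 * A * T := by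
      have h5 : T * ℓ ≤ 2 * t0 * ℓ := mul_le_mul_of_nonneg_right hT2 h0.le
      have h6 : T * ℓ ≤ 4 * A := by
        have : 2 * t0 * ℓ = 2 * (t0 * ℓ) := by ring
        rw [this, ht0ℓ] at h5
        linarith
      have h7 : 9 * ℓ * (T * T) = 9 * T * (T * ℓ) := by ring
      rw [h7]
      have : 9 * T * (T * ℓ) ≤ 9 * T * (4 * A) :=
        mul_le_mul_of_nonneg_left h6 (by positivity)
      linarith
    have hd : ((n:ℝ) + 1) * Real.log 2 ≤ T * A / 2 := by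
      have : ((n:ℝ) + 1) * Real.log 2 ≤ ((n:ℝ) + 1) * 1 :=
        mul_le_mul_of_nonneg_left hl2 (by linarith)
      linarith
    have hTA : 0 < T * A := mul_pos hTpos hApos
    rw [hX]
    nlinarith
  calc (K:ℝ) * LL (K ^ 2) ^ (2 ^ (s + 1) * 2 ^ (s + 1))
      ≤ Real.exp X * Real.exp (9 * ℓ * (T * T)) :=
        mul_le_mul hKexp hLT (pow_nonneg (LL_nonneg _) _) (Real.exp_pos _).le
    _ = Real.exp (X + 9 * ℓ * (T * T)) := (Real.exp_add _ _).symm
    _ ≤ Real.exp (T * (100 * A)) := Real.exp_le_exp.2 hfin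
    _ = (GG n) ^ (2 ^ (s + 1)) := by
        rw [GG, ← Real.exp_nat_mul, hT]
        congr 1
        push_cast
        ring

/-- The weighted count of all pairs, for the level `n`. -/
lemma WW_le_num (n : ℕ) (F : Finset ℕ) (hF : ∀ q ∈ F, 1 ≤ q) (hK1 : 1 ≤ F.card)
    (hK : (F.card : ℝ) ≤ 2 * 2 ^ n * GG n) :
    WW (F.card ^ 2) 1 F ≤ F.card * GG n := by
  obtain ⟨s, hs⟩ := num_core n F.card hK1 hK
  have hW := WW_one_pow (F.card ^ 2) F hF hK1 s
  have hKR : (0:ℝ) < F.card := by exact_mod_cast hK1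
  have hG : 0 < GG n := Real.exp_pos _
  refine le_of_pow_le_pow_left₀ (pow_pos (by norm_num : 0 < 2) (s + 1)).ne' (by positivity) ?_
  refine hW.trans ?_
  rw [mul_pow, pow_succ (F.card : ℝ) (2 ^ (s + 1)), mul_assoc]
  exact mul_le_mul_of_nonneg_left hs (by positivity)

/-- One pair against the kernel. -/
lemma inv_ht_le {H q r : ℕ} (hq : 1 ≤ q) (hr : 1 ≤ r) (hH : ht q r ≤ H) :
    (1:ℝ) / (ht q r : ℝ) ≤ NN H 1 q r := by
  classical
  have ha : 1 ≤ lowA q r := lowA_pos hr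
  have hb : 1 ≤ lowB q r := lowB_pos hq
  have haH : lowA q r ≤ H := (le_max_left _ _).trans hH
  have hbH : lowB q r ≤ H := (le_max_right _ _).trans hH
  let p : (Fin 1 → ℕ) × (Fin 1 → ℕ) := (fun _ => lowA q r, fun _ => lowB q r)
  have hp : p ∈ Tup H 1 ×ˢ Tup H 1 :=
    Finset.mem_product.2 ⟨mem_Tup.2 fun _ => ⟨ha, haH⟩, mem_Tup.2 fun _ => ⟨hb, hbH⟩⟩
  have heq : q * pr p.1 = r * pr p.2 := by
    simp only [pr, p, Fin.prod_univ_one]
    have h1 := lowA_mul q r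
    have h2 := lowB_mul q r
    have hg : 0 < Nat.gcd q r := Nat.gcd_pos_of_pos_left r hq
    apply Nat.eq_of_mul_eq_mul_right hg
    calc q * lowA q r * Nat.gcd q r = q * (lowA q r * Nat.gcd q r) := by ring
      _ = q * r := by rw [h1]
      _ = r * (lowB q r * Nat.gcd q r) := by rw [h2]; ring
      _ = r * lowB q r * Nat.gcd q r := by ring
  have hnn : ∀ x ∈ Tup H 1 ×ˢ Tup H 1, (0:ℝ) ≤
      if q * pr x.1 = r * pr x.2 then om (pr x.1) * om (pr x.2) else 0 := by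
    intro x _
    split_ifs
    · exact mul_nonneg (om_nonneg _) (om_nonneg _)
    · exact le_rfl
  have hsingle := Finset.single_le_sum hnn hp
  rw [if_pos heq] at hsingle
  refine le_trans ?_ hsingle
  simp only [pr, p, Fin.prod_univ_one, om]
  have hhtpos : (0:ℝ) < ht q r := by
    have : 1 ≤ ht q r := ht_pos hr
    exact_mod_cast this
  have haR : (0:ℝ) < lowA q r := by exact_mod_cast ha
  have hbR : (0:ℝ) < lowB q r := by exact_mod_cast hb
  have h3 : Real.sqrt (lowA q r) ≤ Real.sqrt (ht q r) :=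
    Real.sqrt_le_sqrt (by exact_mod_cast le_max_left _ _)
  have h4 : Real.sqrt (lowB q r) ≤ Real.sqrt (ht q r) :=
    Real.sqrt_le_sqrt (by exact_mod_cast le_max_right _ _)
  have h5 : Real.sqrt (lowA q r) * Real.sqrt (lowB q r) ≤ (ht q r : ℝ) := by
    calc Real.sqrt (lowA q r) * Real.sqrt (lowB q r)
        ≤ Real.sqrt (ht q r) * Real.sqrt (ht q r) :=
          mul_le_mul h3 h4 (Real.sqrt_nonneg _) (Real.sqrt_nonneg _)
      _ = (ht q r : ℝ) := Real.mul_self_sqrt hhtpos.le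
  rw [← mul_inv, one_div]
  exact inv_anti₀ (mul_pos (Real.sqrt_pos.2 haR) (Real.sqrt_pos.2 hbR)) h5

/-- The sum of reciprocal heights of all pairs at level `n`. -/
theorem sum_inv_ht_le (n : ℕ) (F : Finset ℕ) (hF : ∀ q ∈ F, 1 ≤ q) (hK1 : 1 ≤ F.card)
    (hK : (F.card : ℝ) ≤ 2 * 2 ^ n * GG n) :
    ∑ q ∈ F, ∑ r ∈ F, (1:ℝ) / (ht q r : ℝ) ≤ 1 + F.card * GG n := by
  obtain ⟨K, hKd⟩ : ∃ K : ℝ, K = (F.card : ℝ) := ⟨_, rfl⟩
  have hKR : (0:ℝ) < K := by rw [hKd]; exact_mod_cast hK1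
  have hterm : ∀ q ∈ F, ∀ r ∈ F, (1:ℝ) / (ht q r : ℝ) ≤ 1 / (K * K) + NN (F.card ^ 2) 1 q r := by
    intro q hq r hr
    by_cases h : ht q r ≤ F.card ^ 2
    · have := inv_ht_le (hF q hq) (hF r hr) h
      have h2 : (0:ℝ) ≤ 1 / (K * K) := by positivity
      linarith
    · push Not at h
      have h3 : K * K ≤ (ht q r : ℝ) := by
        have : ((F.card ^ 2 : ℕ) : ℝ) ≤ (ht q r : ℝ) := by exact_mod_cast h.le
        push_cast at this
        rw [hKd]
        nlinarith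
      have h4 : (1:ℝ) / (ht q r : ℝ) ≤ 1 / (K * K) :=
        one_div_le_one_div_of_le (by positivity) h3
      have h5 := NN_nonneg (F.card ^ 2) 1 q r
      linarith
  have hsum : ∑ q ∈ F, ∑ r ∈ F, (1:ℝ) / (ht q r : ℝ)
      ≤ ∑ q ∈ F, ∑ r ∈ F, (1 / (K * K) + NN (F.card ^ 2) 1 q r) :=
    Finset.sum_le_sum fun q hq => Finset.sum_le_sum fun r hr => hterm q hq r hr
  have hval : ∑ q ∈ F, ∑ r ∈ F, (1 / (K * K) + NN (F.card ^ 2) 1 q r)
      = 1 + WW (F.card ^ 2) 1 F := by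
    simp only [Finset.sum_add_distrib, Finset.sum_const, nsmul_eq_mul, ← hKd]
    unfold WW
    congr 1
    field_simp
  rw [hval] at hsum
  have := WW_le_num n F hF hK1 hK
  linarith

end

end Vale.Agent.Lib.P028G
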