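import Vale.Agent.Lib.P028T.Final

/-! Non-Liouville shifts: the truncation at a power of the divisor function. -/

open Filter MeasureTheory

namespace Vale.Agent.Lib.P028G

open Vale.Agent.Lib.P028
open Vale.Agent.Lib.P028T

/-- The divisor cap, for a non-Liouville shift. -/
theorem main_tau {γ c₀ : ℝ} {k : ℕ} (hc₀ : 0 < c₀) (hk : 1 ≤ k)
    (hγ : ∀ n : ℕ, 1 ≤ n → c₀ / (n:ℝ) ^ k ≤ |(n:ℝ) * γ - round ((n:ℝ) * γ)|)
    (ψ : ℕ → ℝ) (hψ : ∀ q, 0 ≤ ψ q)
    (hdiv : ¬ Summable fun q : ℕ =>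
      min (ψ q) (1 / ((q.divisors.card : ℝ) ^ (2048 ^ 2 * k ^ 2 * (k + 2))))) :
    ∀ᵐ x : ℝ, ∃ᶠ q : ℕ in atTop, dn ((q:ℝ) * x - γ) < ψ q := by
  have hk0 : (0:ℝ) < k := by exact_mod_cast hk
  obtain ⟨t, ht⟩ : ∃ t : ℕ → ℝ, t = fun q => max 1 (q.divisors.card : ℝ) := ⟨_, rfl⟩
  have ht1 : ∀ q, 1 ≤ t q := fun q => by rw [ht]; exact le_max_left _ _
  have ht0 : ∀ q, 0 < t q := fun q => by linarith [ht1 q]
  obtain ⟨θ, hθd⟩ : ∃ θ : ℕ → ℝ, θ = fun q => t q ^ (2048 * k) := ⟨_, rfl⟩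
  have hθ1 : ∀ q, 1 ≤ θ q := fun q => by
    rw [hθd]
    exact one_le_pow₀ (ht1 q)
  have hcc : cc₃ k = (1:ℝ) / (2048 * (k:ℝ)) := by
    unfold cc₃ cc
    field_simp
    norm_num
  refine main_T2 (γ := γ) (c₀ := c₀) (k := k) hγ hc₀ hk ψ θ hψ hθ1 ?_ ?_
  · intro q M hq hM hle
    rw [hcc]
    have hMR : (1:ℝ) ≤ M := by exact_mod_cast hM
    have hdy : (dy q M : ℝ) ≤ t q := by
      have h1 : dy q M ≤ q.divisors.card := by
        unfold dy
        apply Finset.card_le_card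
        intro d hd
        obtain ⟨-, hd2⟩ := Finset.mem_filter.1 hd
        exact Nat.mem_divisors.2 ⟨hd2, by omega⟩
      have h2 : (dy q M : ℝ) ≤ (q.divisors.card : ℝ) := by exact_mod_cast h1
      rw [ht]
      exact h2.trans (le_max_right _ _)
    refine hdy.trans ?_
    have h3 : t q ^ (2048 * k) ≤ (M:ℝ) := by
      rw [hθd] at hle
      exact hle
    have h4 : (t q ^ (2048 * k)) ^ ((1:ℝ) / (2048 * (k:ℝ))) ≤ (M:ℝ) ^ ((1:ℝ) / (2048 * (k:ℝ))) :=
      Real.rpow_le_rpow (by positivity [ht0 q]) h3 (by positivity)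
    have h5 : (t q ^ (2048 * k)) ^ ((1:ℝ) / (2048 * (k:ℝ))) = t q := by
      rw [← Real.rpow_natCast, ← Real.rpow_mul (ht0 q).le]
      have : ((2048 * k : ℕ) : ℝ) * ((1:ℝ) / (2048 * (k:ℝ))) = 1 := by
        push_cast
        field_simp
      rw [this, Real.rpow_one]
    rwa [h5] at h4
  · intro hs
    apply hdiv
    refine Summable.of_nonneg_of_le (fun q => le_min (hψ q) (by positivity)) (fun q => ?_) hs
    apply le_min (min_le_left _ _)
    refine (min_le_right _ _).trans ?_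
    by_cases hq : q = 0
    · subst hq
      have h6 : 2048 ^ 2 * k ^ 2 * (k + 2) ≠ 0 := by positivity
      simp only [Nat.divisors_zero, Finset.card_empty, Nat.cast_zero]
      rw [zero_pow h6]
      simp only [div_zero]
      exact Real.rpow_nonneg (by linarith [hθ1 0]) _
    · have h7 : (1:ℝ) ≤ (q.divisors.card : ℝ) := by
        have : 1 ≤ q.divisors.card := Finset.card_pos.2 ⟨1, Nat.mem_divisors.2 ⟨one_dvd _, hq⟩⟩
        exact_mod_cast this
      have h8 : t q = (q.divisors.card : ℝ) := by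
        rw [ht]
        exact max_eq_right h7
      have h9 : θ q ^ (-(CC k)) = 1 / ((q.divisors.card : ℝ) ^ (2048 ^ 2 * k ^ 2 * (k + 2))) := by
        rw [hθd]
        simp only
        rw [h8, ← Real.rpow_natCast, ← Real.rpow_mul (by linarith)]
        have he : (((2048 * k : ℕ) : ℝ) * -CC k) = -(((2048 ^ 2 * k ^ 2 * (k + 2) : ℕ) : ℝ)) := by
          unfold CC
          push_cast
          ring
        rw [he, Real.rpow_neg (by linarith), Real.rpow_natCast, one_div]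
      rw [h9]

end Vale.Agent.Lib.P028G
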